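import Mathlib

/-!
`p`-biased Fourier analysis on the cube.
-/

open Finset

set_option linter.unusedSectionVars false
set_option linter.unusedVariables false

namespace Vale.Agent.P063

variable {ι : Type} [Fintype ι] [DecidableEq ι] {p : ℝ}

def w (p : ℝ) (b : Bool) : ℝ := bif b then p else 1 - p
def wt (p : ℝ) (x : ι → Bool) : ℝ := ∏ i, w p (x i)
def Ex (p : ℝ) (f : (ι → Bool) → ℝ) : ℝ := ∑ x, wt p x * f x
noncomputable def sg (p : ℝ) : ℝ := √(p * (1 - p))
noncomputable def phi (p : ℝ) (b : Bool) : ℝ := (bif b then 1 - p else -p) / sg p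
noncomputable def chi (p : ℝ) (S : Finset ι) (x : ι → Bool) : ℝ := ∏ i ∈ S, phi p (x i)
noncomputable def hat (p : ℝ) (f : (ι → Bool) → ℝ) (S : Finset ι) : ℝ :=
  Ex p fun x => f x * chi p S x

theorem w_pos (h0 : 0 < p) (h1 : p < 1) (b : Bool) : 0 < w p b := by
  cases b <;> simp [w] <;> linarith

theorem wt_pos (h0 : 0 < p) (h1 : p < 1) (x : ι → Bool) : 0 < wt p x :=
  prod_pos fun _ _ => w_pos h0 h1 _

theorem sg_pos (h0 : 0 < p) (h1 : p < 1) : 0 < sg p := Real.sqrt_pos.2 (by nlinarith)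

theorem sg_sq (h0 : 0 < p) (h1 : p < 1) : sg p ^ 2 = p * (1 - p) := Real.sq_sqrt (by nlinarith)

theorem Ex_prod (g : ι → Bool → ℝ) :
    Ex p (fun x => ∏ i, g i (x i)) = ∏ i, (p * g i true + (1 - p) * g i false) := by
  unfold Ex wt
  simp only [← prod_mul_distrib]
  rw [← Fintype.prod_sum (fun i b => w p b * g i b)]
  simp [w]

theorem Ex_const (c : ℝ) : Ex p (fun _ : ι → Bool => c) = c := by
  have := Ex_prod (p := p) (fun (_ : ι) (_ : Bool) => (1 : ℝ))
  simp only [prod_const_one, mul_one, add_sub_cancel, Ex] at this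
  unfold Ex
  rw [← sum_mul, this, one_mul]

theorem Ex_add (f g : (ι → Bool) → ℝ) : Ex p (fun x => f x + g x) = Ex p f + Ex p g := by
  simp [Ex, mul_add, sum_add_distrib]

theorem Ex_sub (f g : (ι → Bool) → ℝ) : Ex p (fun x => f x - g x) = Ex p f - Ex p g := by
  simp [Ex, mul_sub, sum_sub_distrib]

theorem Ex_mul_left (c : ℝ) (f : (ι → Bool) → ℝ) : Ex p (fun x => c * f x) = c * Ex p f := by
  simp [Ex, mul_sum, mul_left_comm]

theorem Ex_mul_right (c : ℝ) (f : (ι → Bool) → ℝ) : Ex p (fun x => f x * c) = Ex p f * c := by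
  simp [Ex, sum_mul, mul_assoc]

theorem Ex_sum {κ : Type} (s : Finset κ) (f : κ → (ι → Bool) → ℝ) :
    Ex p (fun x => ∑ k ∈ s, f k x) = ∑ k ∈ s, Ex p (f k) := by
  simp only [Ex, mul_sum]
  rw [sum_comm]

theorem Ex_mono (h0 : 0 < p) (h1 : p < 1) {f g : (ι → Bool) → ℝ} (h : ∀ x, f x ≤ g x) :
    Ex p f ≤ Ex p g :=
  sum_le_sum fun x _ => mul_le_mul_of_nonneg_left (h x) (wt_pos h0 h1 x).le

theorem Ex_nonneg (h0 : 0 < p) (h1 : p < 1) {f : (ι → Bool) → ℝ} (h : ∀ x, 0 ≤ f x) :
    0 ≤ Ex p f := by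
  simpa [Ex_const] using Ex_mono h0 h1 (f := fun _ => 0) h

theorem Ex_abs (h0 : 0 < p) (h1 : p < 1) (f : (ι → Bool) → ℝ) :
    |Ex p f| ≤ Ex p fun x => |f x| := by
  refine (abs_sum_le_sum_abs _ _).trans (le_of_eq (sum_congr rfl fun x _ => ?_))
  rw [abs_mul, abs_of_pos (wt_pos h0 h1 x)]

theorem Ex_comm (F : (ι → Bool) → (ι → Bool) → ℝ) :
    Ex p (fun x => Ex p fun y => F x y) = Ex p fun y => Ex p fun x => F x y := by
  simp only [Ex, mul_sum]
  rw [sum_comm]
  simp only [mul_left_comm]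

theorem Ex_cs (h0 : 0 < p) (h1 : p < 1) (f g : (ι → Bool) → ℝ) :
    Ex p (fun x => f x * g x) ^ 2 ≤ Ex p (fun x => f x ^ 2) * Ex p (fun x => g x ^ 2) := by
  refine sum_sq_le_sum_mul_sum_of_sq_le_mul _ (fun x _ => ?_) (fun x _ => ?_) (fun x _ => ?_)
  · exact mul_nonneg (wt_pos h0 h1 x).le (sq_nonneg _)
  · exact mul_nonneg (wt_pos h0 h1 x).le (sq_nonneg _)
  · exact le_of_eq (by ring)

theorem pw_pw (A : Finset ι) (x y : ι → Bool) :
    A.piecewise (A.piecewise x y) (A.piecewise y x) = x := by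
  funext i
  by_cases h : i ∈ A <;> simp [piecewise, h]

theorem Ex_swap (A : Finset ι) (F : (ι → Bool) → (ι → Bool) → ℝ) :
    Ex p (fun x => Ex p fun y => F (A.piecewise x y) (A.piecewise y x)) =
      Ex p fun x => Ex p fun y => F x y := by
  simp only [Ex, mul_sum]
  rw [← sum_product', ← sum_product']
  refine sum_nbij' (fun z => (A.piecewise z.1 z.2, A.piecewise z.2 z.1))
    (fun z => (A.piecewise z.1 z.2, A.piecewise z.2 z.1)) (by simp) (by simp)
    (fun z _ => by simp only [pw_pw]) (fun z _ => by simp only [pw_pw]) fun z _ => ?_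
  have : wt p (A.piecewise z.1 z.2) * wt p (A.piecewise z.2 z.1) = wt p z.1 * wt p z.2 := by
    unfold wt
    rw [← prod_mul_distrib, ← prod_mul_distrib]
    refine prod_congr rfl fun i _ => ?_
    by_cases h : i ∈ A <;> simp [piecewise, h, mul_comm]
  simp only [← mul_assoc, this]

theorem Ex_pw (A : Finset ι) (f : (ι → Bool) → ℝ) :
    Ex p (fun x => Ex p fun y => f (A.piecewise x y)) = Ex p f := by
  rw [Ex_swap A (fun x _ => f x)]
  simp only [Ex_const]

theorem Ex_coord (i : ι) (g : Bool → ℝ) :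
    Ex p (fun y => g (y i)) = p * g true + (1 - p) * g false := by
  have := Ex_prod (p := p) (fun j b => if j = i then g b else 1)
  simp only [prod_ite_eq', mem_univ, if_true] at this
  rw [this, ← Finset.mul_prod_erase _ _ (mem_univ i), prod_eq_one]
  · simp
  · intro j hj
    simp [ne_of_mem_erase hj]

theorem Ex_update (i : ι) (f : (ι → Bool) → ℝ) :
    Ex p f = Ex p fun x => p * f (Function.update x i true) +
      (1 - p) * f (Function.update x i false) := by
  rw [← Ex_pw {i} f, Ex_comm]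
  congr 1
  funext y
  simp only [piecewise_singleton]
  exact Ex_coord i fun b => f (Function.update y i b)

theorem phi_mean (h0 : 0 < p) (h1 : p < 1) : p * phi p true + (1 - p) * phi p false = 0 := by
  have := sg_pos h0 h1
  simp only [phi, Bool.cond_true, Bool.cond_false]
  field_simp
  ring

theorem phi_sq (h0 : 0 < p) (h1 : p < 1) :
    p * phi p true ^ 2 + (1 - p) * phi p false ^ 2 = 1 := by
  have := sg_pos h0 h1
  simp only [phi, Bool.cond_true, Bool.cond_false, div_pow, sg_sq h0 h1]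
  have : 1 - p ≠ 0 := by linarith
  field_simp
  ring

theorem chi_eq_prod (S : Finset ι) (x : ι → Bool) :
    chi p S x = ∏ i, if i ∈ S then phi p (x i) else 1 := by
  simp [chi]

theorem Ex_chi (h0 : 0 < p) (h1 : p < 1) (S : Finset ι) :
    Ex p (chi p S) = if S = ∅ then 1 else 0 := by
  split_ifs with h
  · subst h
    exact Ex_const 1
  · obtain ⟨i, hi⟩ := nonempty_iff_ne_empty.2 h
    have : chi p S = fun x : ι → Bool => ∏ i, (fun i b => if i ∈ S then phi p b else 1) i (x i) :=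
      funext (chi_eq_prod S)
    rw [this, Ex_prod (fun i b => if i ∈ S then phi p b else 1)]
    exact prod_eq_zero (mem_univ i) (by simp [hi, phi_mean h0 h1])

theorem kernel (h0 : 0 < p) (h1 : p < 1) (x y : ι → Bool) :
    wt p y * ∑ S, chi p S y * chi p S x = if y = x then 1 else 0 := by
  have e : ∑ S, chi p S y * chi p S x = ∏ i, (1 + phi p (y i) * phi p (x i)) := by
    rw [prod_one_add, powerset_univ]
    simp [chi, prod_mul_distrib]
  have k : ∀ a b, w p a * (1 + phi p a * phi p b) = if a = b then 1 else 0 := by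
    intro a b
    have h2 := sg_sq h0 h1
    have h3 := (sg_pos h0 h1).ne'
    cases a <;> cases b <;> simp only [w, phi, Bool.cond_true, Bool.cond_false, reduceCtorEq,
      if_true, if_false] <;> field_simp <;> rw [h2] <;> ring
  rw [e, wt, ← prod_mul_distrib]
  simp only [k]
  rw [prod_ite_zero]
  simp [funext_iff]

theorem expand (h0 : 0 < p) (h1 : p < 1) (f : (ι → Bool) → ℝ) (x : ι → Bool) :
    f x = ∑ S, hat p f S * chi p S x := by
  simp only [hat, Ex, sum_mul]
  rw [sum_comm]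
  have : ∀ y, ∑ S, wt p y * (f y * chi p S y) * chi p S x = f y * if y = x then 1 else 0 := by
    intro y
    rw [← kernel h0 h1, mul_sum, mul_sum]
    exact sum_congr rfl fun S _ => by ring
  simp [this]

theorem parseval (h0 : 0 < p) (h1 : p < 1) (f g : (ι → Bool) → ℝ) :
    Ex p (fun x => f x * g x) = ∑ S, hat p f S * hat p g S := by
  have : (fun x => f x * g x) = fun x => ∑ S, hat p f S * (g x * chi p S x) := by
    funext x
    conv_lhs => rw [expand h0 h1 f x, sum_mul]
    exact sum_congr rfl fun S _ => by ring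
  rw [this, Ex_sum]
  simp only [Ex_mul_left]
  rfl

theorem parseval_sq (h0 : 0 < p) (h1 : p < 1) (f : (ι → Bool) → ℝ) :
    Ex p (fun x => f x ^ 2) = ∑ S, hat p f S ^ 2 := by
  simp only [sq, parseval h0 h1]

theorem hat_empty (f : (ι → Bool) → ℝ) : hat p f ∅ = Ex p f := by simp [hat, chi]

theorem chi_pw (A S : Finset ι) (x y : ι → Bool) :
    chi p S (A.piecewise x y) = chi p (S ∩ A) x * chi p (S \ A) y := by
  simp only [chi_eq_prod, ← prod_mul_distrib]
  refine prod_congr rfl fun i _ => ?_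
  by_cases h : i ∈ A <;> by_cases h' : i ∈ S <;> simp [piecewise, h, h']

noncomputable def cond (p : ℝ) (A : Finset ι) (f : (ι → Bool) → ℝ) (x : ι → Bool) : ℝ :=
  Ex p fun z => f (A.piecewise x z)

theorem hat_cond (h0 : 0 < p) (h1 : p < 1) (A S : Finset ι) (f : (ι → Bool) → ℝ) :
    hat p (cond p A f) S = if S ⊆ A then hat p f S else 0 := by
  have := Ex_swap (p := p) A fun a b => f a * chi p S (A.piecewise a b)
  simp only [pw_pw] at this
  unfold hat cond
  simp only [← Ex_mul_right]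
  rw [this]
  simp only [chi_pw, ← mul_assoc, Ex_mul_left, Ex_chi h0 h1, sdiff_eq_empty_iff_subset]
  split_ifs with h
  · simp [inter_eq_left.2 h]
  · simp [Ex_const]

theorem hat_sub (f g : (ι → Bool) → ℝ) (S : Finset ι) :
    hat p (fun x => f x - g x) S = hat p f S - hat p g S := by
  simp only [hat, sub_mul, Ex_sub]

theorem hat_const (h0 : 0 < p) (h1 : p < 1) (c : ℝ) (S : Finset ι) :
    hat p (fun _ => c) S = if S = ∅ then c else 0 := by
  simp only [hat, Ex_mul_left, Ex_chi h0 h1]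
  split_ifs <;> simp

theorem chi_update {S : Finset ι} {i : ι} (h : i ∉ S) (x : ι → Bool) (b : Bool) :
    chi p S (Function.update x i b) = chi p S x :=
  prod_congr rfl fun j hj => by rw [Function.update_of_ne (ne_of_mem_of_not_mem hj h)]

theorem four_step (h0 : 0 < p) (h1 : p < 1) (a b : ℝ) :
    p * (a + phi p true * b) ^ 4 + (1 - p) * (a + phi p false * b) ^ 4 ≤
      a ^ 4 + 8 * (a ^ 2 * b ^ 2) + (4 / sg p) ^ 2 * b ^ 4 := by
  have m1 := phi_mean h0 h1
  have m2 := phi_sq h0 h1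
  have hs := sg_pos h0 h1
  have h2 := sg_sq h0 h1
  have hq : 0 < 1 - p := by linarith
  obtain ⟨s, hs'⟩ : ∃ s, s = (sg p)⁻¹ := ⟨_, rfl⟩
  have s0 : 0 < s := by rw [hs']; positivity
  have s1 : s ^ 2 * (p * (1 - p)) = 1 := by rw [hs', ← h2]; field_simp
  have e1 : phi p true = (1 - p) * s := by simp [phi, hs', div_eq_mul_inv]
  have e2 : phi p false = -p * s := by simp [phi, hs', div_eq_mul_inv]
  have m3 : p * phi p true ^ 3 + (1 - p) * phi p false ^ 3 = (1 - 2 * p) * s := by
    rw [e1, e2]; linear_combination ((1 - 2 * p) * s) * s1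
  have m4 : p * phi p true ^ 4 + (1 - p) * phi p false ^ 4 = (1 - 3 * (p * (1 - p))) * s ^ 2 := by
    rw [e1, e2]; linear_combination ((1 - 3 * (p * (1 - p))) * s ^ 2) * s1
  have e : p * (a + phi p true * b) ^ 4 + (1 - p) * (a + phi p false * b) ^ 4 =
      a ^ 4 + 6 * (a ^ 2 * b ^ 2) + 4 * (a * b) * ((1 - 2 * p) * s * b ^ 2) +
        (1 - 3 * (p * (1 - p))) * (s ^ 2 * b ^ 4) := by
    linear_combination (4 * a ^ 3 * b) * m1 + (6 * a ^ 2 * b ^ 2) * m2 + (4 * a * b ^ 3) * m3 +
      b ^ 4 * m4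
  rw [e, div_eq_mul_inv, ← hs']
  have k1 : 0 ≤ s ^ 2 * b ^ 4 := by positivity
  have k2 : (1 - 2 * p) ^ 2 * (s ^ 2 * b ^ 4) ≤ 1 * (s ^ 2 * b ^ 4) :=
    mul_le_mul_of_nonneg_right (by nlinarith) k1
  have k3 : (1 - 3 * (p * (1 - p))) * (s ^ 2 * b ^ 4) ≤ 1 * (s ^ 2 * b ^ 4) :=
    mul_le_mul_of_nonneg_right (by nlinarith) k1
  nlinarith [sq_nonneg (a * b - (1 - 2 * p) * s * b ^ 2)]

theorem sg_le (h0 : 0 < p) (h1 : p < 1) : sg p ≤ 1 / 2 := by
  refine Real.sqrt_le_iff.2 ⟨by norm_num, by nlinarith [sq_nonneg (p - 1 / 2)]⟩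

theorem eight_le (h0 : 0 < p) (h1 : p < 1) : 8 ≤ 4 / sg p := by
  rw [le_div_iff₀ (sg_pos h0 h1)]
  linarith [sg_le h0 h1]

theorem bonami (h0 : 0 < p) (h1 : p < 1) (J : Finset ι) (c : Finset ι → ℝ) :
    Ex p (fun x => (∑ S ∈ J.powerset, c S * chi p S x) ^ 4) ≤
      (∑ S ∈ J.powerset, (4 / sg p) ^ S.card * c S ^ 2) ^ 2 := by
  induction J using Finset.induction_on generalizing c with
  | empty => simp [chi, Ex_const]; exact le_of_eq (by ring)
  | insert i J hi ih =>
    have hK := eight_le h0 h1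
    set K := 4 / sg p
    have hn : ∀ S ∈ J.powerset, i ∉ S := fun S hS h => hi (mem_powerset.1 hS h)
    set g0 : (ι → Bool) → ℝ := fun x => ∑ S ∈ J.powerset, c S * chi p S x with hg0
    set g1 : (ι → Bool) → ℝ := fun x => ∑ S ∈ J.powerset, c (insert i S) * chi p S x with hg1
    have e : ∀ x b, ∑ S ∈ (insert i J).powerset, c S * chi p S (Function.update x i b) =
        g0 x + phi p b * g1 x := by
      intro x b
      rw [sum_powerset_insert hi, hg0, hg1, mul_sum]
      congr 1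
      · exact sum_congr rfl fun S hS => by rw [chi_update (hn S hS)]
      · refine sum_congr rfl fun S hS => ?_
        have := chi_update (p := p) (hn S hS) x b
        unfold chi at this ⊢
        rw [prod_insert (hn S hS), this, Function.update_self]
        ring
    rw [Ex_update i]
    simp only [e]
    refine (Ex_mono h0 h1 fun x => four_step h0 h1 (g0 x) (g1 x)).trans ?_
    rw [Ex_add, Ex_add, Ex_mul_left, Ex_mul_left, sum_powerset_insert hi]
    have e2 : ∑ S ∈ J.powerset, K ^ (insert i S).card * c (insert i S) ^ 2 =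
        K * ∑ S ∈ J.powerset, K ^ S.card * c (insert i S) ^ 2 := by
      rw [mul_sum]
      exact sum_congr rfl fun S hS => by rw [card_insert_of_notMem (hn S hS)]; ring
    rw [e2]
    have i0 := ih c
    have i1 := ih fun S => c (insert i S)
    set N0 := ∑ S ∈ J.powerset, K ^ S.card * c S ^ 2
    set N1 := ∑ S ∈ J.powerset, K ^ S.card * c (insert i S) ^ 2
    have n0 : 0 ≤ N0 := sum_nonneg fun _ _ => by positivity
    have n1 : 0 ≤ N1 := sum_nonneg fun _ _ => by positivity
    have cs := Ex_cs h0 h1 (fun x => g0 x ^ 2) (fun x => g1 x ^ 2)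
    simp only [← pow_mul] at cs
    have p1 : 0 ≤ Ex p fun x => g1 x ^ 4 := Ex_nonneg h0 h1 fun x => by positivity
    have cs2 : Ex p (fun x => g0 x ^ 2 * g1 x ^ 2) ≤ N0 * N1 := by
      refine (abs_le_of_sq_le_sq' ?_ (mul_nonneg n0 n1)).2
      rw [mul_pow]
      exact cs.trans (mul_le_mul i0 i1 p1 (sq_nonneg _))
    have i2 : K ^ 2 * Ex p (fun x => g1 x ^ 4) ≤ K ^ 2 * N1 ^ 2 :=
      mul_le_mul_of_nonneg_left i1 (sq_nonneg _)
    nlinarith [mul_nonneg n0 n1]

end Vale.Agent.P063
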