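import Mathlib

/-!
Definitions used in the statement of P063 (Friedgut-Kalai threshold width).
-/

namespace Vale.Agent.P063

/-- The `r`-subsets of the vertex set `Fin n`. -/
abbrev Edge (n r : ℕ) : Type := {e : Finset (Fin n) // e.card = r}

/-- The image of an edge under a vertex permutation. -/
def relabel {n r : ℕ} (σ : Equiv.Perm (Fin n)) (e : Edge n r) : Edge n r :=
  ⟨e.1.map σ.toEmbedding, (Finset.card_map _).trans e.2⟩

/-- Invariance under all vertex permutations. -/
def IsProperty {n r : ℕ} (P : Set (Edge n r → Bool)) : Prop :=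
  ∀ (σ : Equiv.Perm (Fin n)) (x : Edge n r → Bool), x ∈ P ↔ (fun e => x (relabel σ e)) ∈ P

/-- Adding edges preserves membership. -/
def Increasing {n r : ℕ} (P : Set (Edge n r → Bool)) : Prop :=
  ∀ x y : Edge n r → Bool, (∀ e, x e = true → y e = true) → x ∈ P → y ∈ P

/-- The probability of `P` when each edge is present independently with probability `p`. -/
noncomputable def mu {n r : ℕ} (p : ℝ) (P : Set (Edge n r → Bool)) : ℝ :=
  ∑ x : Edge n r → Bool, P.indicator (fun x => ∏ e, if x e = true then p else 1 - p) x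

/-- `p_a(P)`. -/
noncomputable def crit {n r : ℕ} (P : Set (Edge n r → Bool)) (a : ℝ) : ℝ :=
  sInf {p : ℝ | p ∈ Set.Icc (0 : ℝ) 1 ∧ a ≤ mu p P}

/-- The threshold width `w_ε(P)`. -/
noncomputable def width {n r : ℕ} (ε : ℝ) (P : Set (Edge n r → Bool)) : ℝ :=
  crit P (1 - ε) - crit P ε

end Vale.Agent.P063
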