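import Vale.Agent.P063.Cube

/-!
The level inequality, restrictions, and Russo's formula.
-/

open Finset

set_option linter.unusedSectionVars false
set_option linter.unusedVariables false

namespace Vale.Agent.P063

variable {ι : Type} [Fintype ι] [DecidableEq ι] {p : ℝ}

theorem hat_chi (h0 : 0 < p) (h1 : p < 1) (S T : Finset ι) :
    hat p (chi p S) T = if T = S then 1 else 0 := by
  have e : ∀ x : ι → Bool, chi p S x * chi p T x =
      ∏ i, (fun i b => (if i ∈ S then phi p b else 1) * if i ∈ T then phi p b else 1) i (x i) := by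
    intro x
    rw [chi_eq_prod, chi_eq_prod, ← prod_mul_distrib]
  unfold hat
  simp only [e]
  rw [Ex_prod (fun i b => (if i ∈ S then phi p b else 1) * if i ∈ T then phi p b else 1)]
  split_ifs with h
  · subst h
    refine prod_eq_one fun i _ => ?_
    split_ifs
    · simpa [sq] using phi_sq h0 h1
    · simp
  · obtain ⟨i, hi⟩ : ∃ i, ¬(i ∈ T ↔ i ∈ S) := by
      by_contra hc
      push Not at hc
      exact h (Finset.ext hc)
    refine prod_eq_zero (mem_univ i) ?_
    by_cases h2 : i ∈ S <;> by_cases h3 : i ∈ T <;> simp_all [phi_mean h0 h1]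

theorem hat_comb (h0 : 0 < p) (h1 : p < 1) (c : Finset ι → ℝ) (T : Finset ι) :
    hat p (fun x => ∑ S, c S * chi p S x) T = c T := by
  have := fun S => hat_chi h0 h1 S T
  unfold hat at this ⊢
  simp only [sum_mul, mul_assoc]
  rw [Ex_sum]
  simp only [Ex_mul_left, this]
  simp

/-- The level inequality: low-degree weight is at most `K^D ‖H‖₁ ‖H‖₂`. -/
theorem level (h0 : 0 < p) (h1 : p < 1) (H : (ι → Bool) → ℝ) (D : ℕ) {b : ℝ} (hb : 0 ≤ b)
    (hH : Ex p (fun x => H x ^ 2) ≤ b ^ 2) :
    ∑ S with S.card ≤ D, hat p H S ^ 2 ≤ (4 / sg p) ^ D * b * Ex p fun x => |H x| := by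
  have hK := eight_le h0 h1
  set K := 4 / sg p
  set c : Finset ι → ℝ := fun S => if S.card ≤ D then hat p H S else 0 with hc
  set G : (ι → Bool) → ℝ := fun x => ∑ S, c S * chi p S x with hG
  set a := ∑ S with S.card ≤ D, hat p H S ^ 2 with ha
  have a0 : 0 ≤ a := sum_nonneg fun _ _ => sq_nonneg _
  have e1 : Ex p (fun x => G x * H x) = a := by
    rw [parseval h0 h1, ha, sum_filter]
    refine sum_congr rfl fun S _ => ?_
    rw [hG, hat_comb h0 h1, hc]
    simp only
    split_ifs <;> ring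
  have e2 : Ex p (fun x => G x ^ 4) ≤ (K ^ D * a) ^ 2 := by
    have := bonami h0 h1 univ c
    rw [powerset_univ] at this
    refine this.trans (pow_le_pow_left₀ (sum_nonneg fun _ _ => by positivity) ?_ 2)
    rw [ha, sum_filter, mul_sum]
    refine sum_le_sum fun S _ => ?_
    simp only [hc]
    split_ifs with h
    · exact mul_le_mul_of_nonneg_right (pow_le_pow_right₀ (by linarith) h) (sq_nonneg _)
    · simp
  have c1 := Ex_cs h0 h1 (fun x => G x ^ 2) (fun x => |H x|)
  simp only [← pow_mul, sq_abs] at c1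
  have c2 := Ex_cs h0 h1 (fun x => |G x| * √|H x|) (fun x => √|H x|)
  simp only [mul_pow, sq_abs, Real.sq_sqrt (abs_nonneg _), mul_assoc,
    Real.mul_self_sqrt (abs_nonneg _)] at c2
  have c3 : a ≤ Ex p fun x => |G x| * |H x| := by
    rw [← e1]
    exact Ex_mono h0 h1 fun x => by rw [← abs_mul]; exact le_abs_self _
  have L0 : 0 ≤ Ex p fun x => |H x| := Ex_nonneg h0 h1 fun x => abs_nonneg _
  have c4 : Ex p (fun x => G x ^ 2 * |H x|) ≤ K ^ D * a * b := by
    refine (abs_le_of_sq_le_sq' ?_ (by positivity)).2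
    rw [mul_pow]
    exact c1.trans (mul_le_mul e2 hH (Ex_nonneg h0 h1 fun x => sq_nonneg _) (sq_nonneg _))
  have c5 : a ^ 2 ≤ K ^ D * a * b * Ex p fun x => |H x| :=
    (pow_le_pow_left₀ a0 c3 2).trans (c2.trans (mul_le_mul_of_nonneg_right c4 L0))
  rcases a0.eq_or_lt with h | h
  · rw [← h]; positivity
  · refine le_of_mul_le_mul_left ?_ h
    nlinarith

/-- Restriction of the coordinates in `B` to the values of `y`. -/
def res (B : Finset ι) (f : (ι → Bool) → ℝ) (y x : ι → Bool) : ℝ := f (B.piecewise y x)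

theorem hat_res (B : Finset ι) (f : (ι → Bool) → ℝ) {T R : Finset ι} (hT : Disjoint T B)
    (hR : R ⊆ B) : hat p (fun y => hat p (res B f y) T) R = hat p f (T ∪ R) := by
  unfold hat res
  rw [← Ex_pw B fun z => f z * chi p (T ∪ R) z]
  congr 1
  funext y
  rw [← Ex_mul_right]
  congr 1
  funext x
  have e1 : (T ∪ R) ∩ B = R := by
    rw [union_inter_distrib_right, disjoint_iff_inter_eq_empty.1 hT, inter_eq_left.2 hR, empty_union]
  have e2 : (T ∪ R) \ B = T := by
    rw [union_sdiff_distrib, sdiff_eq_empty_iff_subset.2 hR, union_empty, sdiff_eq_self_of_disjoint hT]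
  rw [chi_pw, e1, e2]
  ring

theorem resample (h0 : 0 < p) (h1 : p < 1) (A : Finset ι) (f : (ι → Bool) → ℝ) :
    Ex p (fun x => Ex p fun z => (f (A.piecewise x z) - f z) ^ 2) ≤
      2 * ∑ S, ((S ∩ A).card : ℝ) * hat p f S ^ 2 := by
  have e : ∀ x z, (f (A.piecewise x z) - f z) ^ 2 =
      f (A.piecewise x z) ^ 2 + f z ^ 2 - 2 * (f z * f (Aᶜ.piecewise z x)) := by
    intro x z
    rw [piecewise_compl]
    ring
  simp only [e, Ex_sub, Ex_add, Ex_mul_left, Ex_const]
  rw [Ex_pw A fun x => f x ^ 2, Ex_comm]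
  simp only [Ex_mul_left]
  have := parseval h0 h1 f (cond p Aᶜ f)
  unfold cond at this
  rw [this, parseval_sq h0 h1, ← two_mul, ← mul_sub, ← sum_sub_distrib]
  refine mul_le_mul_of_nonneg_left (sum_le_sum fun S _ => ?_) (by norm_num)
  have h2 := hat_cond h0 h1 Aᶜ S f
  unfold cond at h2
  rw [h2]
  split_ifs with h
  · have : (0 : ℝ) ≤ ((S ∩ A).card : ℝ) * hat p f S ^ 2 := by positivity
    nlinarith
  · have : 1 ≤ (S ∩ A).card := by
      rw [one_le_card]
      by_contra hn
      rw [not_nonempty_iff_eq_empty] at hn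
      exact h fun i hi => mem_compl.2 fun hA => notMem_empty i (hn ▸ mem_inter.2 ⟨hi, hA⟩)
    have : (1 : ℝ) ≤ (S ∩ A).card := by exact_mod_cast this
    nlinarith [sq_nonneg (hat p f S)]

/-- The main estimate for one star `A` and one frozen set `B`. -/
theorem star_bound (h0 : 0 < p) (h1 : p < 1) (f : (ι → Bool) → ℝ) (hf : ∀ x, f x = 0 ∨ f x = 1)
    {A B : Finset ι} (hAB : Disjoint A B) (D : ℕ) {b : ℝ} (hb : 0 ≤ b)
    (hy : ∀ y, ∑ T with T ⊆ A ∧ T ≠ ∅, hat p (res B f y) T ^ 2 ≤ b ^ 2) :
    ∑ S with S ⊆ A ∪ B ∧ S ∩ A ≠ ∅ ∧ (S ∩ A).card ≤ D, hat p f S ^ 2 ≤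
      (4 / sg p) ^ D * b * (2 * ∑ S, ((S ∩ A).card : ℝ) * hat p f S ^ 2) := by
  have hK := eight_le h0 h1
  set H : (ι → Bool) → (ι → Bool) → ℝ := fun y x => cond p A (res B f y) x - Ex p (res B f y)
    with hH
  have hatH : ∀ y T, hat p (H y) T = if T ⊆ A ∧ T ≠ ∅ then hat p (res B f y) T else 0 := by
    intro y T
    rw [hH]
    simp only
    rw [hat_sub, hat_cond h0 h1, hat_const h0 h1]
    by_cases h : T = ∅
    · subst h; simp [hat_empty]
    · simp [h]
  have lev : ∀ y, ∑ T with T ⊆ A ∧ T ≠ ∅ ∧ T.card ≤ D, hat p (res B f y) T ^ 2 ≤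
      (4 / sg p) ^ D * b * Ex p fun x => |H y x| := by
    intro y
    refine le_trans (le_of_eq ?_) (level h0 h1 (H y) D hb ?_)
    · simp only [sum_filter, hatH]
      refine sum_congr rfl fun T _ => ?_
      by_cases a1 : T ⊆ A <;> by_cases a2 : T = ∅ <;> by_cases a3 : T.card ≤ D <;> simp [a1, a2, a3]
    · rw [parseval_sq h0 h1]
      refine le_trans (le_of_eq ?_) (hy y)
      simp only [sum_filter, hatH]
      refine sum_congr rfl fun T _ => ?_
      split_ifs <;> simp
  have L1 : Ex p (fun y => Ex p fun x => |H y x|) ≤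
      2 * ∑ S, ((S ∩ A).card : ℝ) * hat p f S ^ 2 := by
    refine le_trans ?_ (resample h0 h1 A f)
    rw [Ex_comm]
    refine Ex_mono h0 h1 fun x => ?_
    rw [← Ex_pw B fun z => (f (A.piecewise x z) - f z) ^ 2]
    refine Ex_mono h0 h1 fun y => ?_
    simp only [hH, cond, ← Ex_sub]
    refine (Ex_abs h0 h1 _).trans (Ex_mono h0 h1 fun z => le_of_eq ?_)
    have e : B.piecewise y (A.piecewise x z) = A.piecewise x (B.piecewise y z) := by
      funext i
      by_cases a1 : i ∈ A <;> by_cases a2 : i ∈ B <;> simp [piecewise, a1, a2]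
      exact absurd a2 (disjoint_left.1 hAB a1)
    simp only [res, e]
    rcases hf (A.piecewise x (B.piecewise y z)) with h | h <;>
      rcases hf (B.piecewise y z) with h' | h' <;> simp [h, h']
  have E1 := Ex_mono h0 h1 lev
  rw [Ex_mul_left, Ex_sum] at E1
  refine le_trans ?_ (E1.trans (mul_le_mul_of_nonneg_left L1 (by positivity)))
  have bes : ∀ T ∈ univ.filter (fun T : Finset ι => T ⊆ A ∧ T ≠ ∅ ∧ T.card ≤ D),
      ∑ R ∈ B.powerset, hat p f (T ∪ R) ^ 2 ≤ Ex p fun y => hat p (res B f y) T ^ 2 := by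
    intro T hT
    rw [parseval_sq h0 h1]
    refine le_trans (le_of_eq ?_) (sum_le_sum_of_subset_of_nonneg (subset_univ B.powerset)
      fun _ _ _ => sq_nonneg _)
    refine sum_congr rfl fun R hR => ?_
    rw [hat_res B f (disjoint_of_subset_left (mem_filter.1 hT).2.1 hAB) (mem_powerset.1 hR)]
  refine le_trans ?_ (sum_le_sum bes)
  rw [← sum_product']
  have inj : Set.InjOn (fun S : Finset ι => (S ∩ A, S \ A))
      (univ.filter fun S : Finset ι => S ⊆ A ∪ B ∧ S ∩ A ≠ ∅ ∧ (S ∩ A).card ≤ D) := by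
    intro S _ S' _ h
    simp only [Prod.mk.injEq] at h
    rw [← sdiff_union_inter S A, ← sdiff_union_inter S' A, h.1, h.2]
  refine le_trans (le_of_eq ?_) (sum_le_sum_of_subset_of_nonneg
    (s := image (fun S : Finset ι => (S ∩ A, S \ A))
      (univ.filter fun S : Finset ι => S ⊆ A ∪ B ∧ S ∩ A ≠ ∅ ∧ (S ∩ A).card ≤ D)) ?_
    fun _ _ _ => sq_nonneg _)
  · rw [sum_image inj]
    refine sum_congr rfl fun S _ => ?_
    simp only
    rw [union_comm, sdiff_union_inter]
  · intro z hz
    obtain ⟨S, hS, rfl⟩ := mem_image.1 hz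
    obtain ⟨s1, s2, s3⟩ := (mem_filter.1 hS).2
    simp only [mem_product, mem_filter, mem_univ, true_and, mem_powerset]
    refine ⟨⟨inter_subset_right, s2, s3⟩, fun i hi => ?_⟩
    have := mem_sdiff.1 hi
    exact (mem_union.1 (s1 this.1)).resolve_left this.2

theorem hasDerivAt_wt (h0 : 0 < p) (h1 : p < 1) (x : ι → Bool) :
    HasDerivAt (fun q => wt q x)
      (∑ i, wt p x * (bif x i then p⁻¹ else -(1 - p)⁻¹)) p := by
  have k : ∀ b, HasDerivAt (fun q => w q b) (bif b then 1 else -1) p := by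
    intro b
    cases b
    · simpa [w] using (hasDerivAt_id p).const_sub 1
    · exact hasDerivAt_id p
  have := HasDerivAt.fun_finsetProd (u := univ) (f := fun i q => w q (x i)) fun i _ => k (x i)
  refine this.congr_deriv (sum_congr rfl fun i _ => ?_)
  rw [wt, ← Finset.prod_erase_mul _ _ (mem_univ i), smul_eq_mul, mul_assoc]
  congr 1
  have : 1 - p ≠ 0 := by linarith
  cases x i <;> simp only [w, Bool.cond_true, Bool.cond_false] <;> field_simp

/-- Russo's formula in spectral form. -/
theorem russo (h0 : 0 < p) (h1 : p < 1) (f : (ι → Bool) → ℝ)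
    (hf : ∀ x i, f (Function.update x i true) - f (Function.update x i false) = 0 ∨
      f (Function.update x i true) - f (Function.update x i false) = 1) :
    HasDerivAt (fun q => Ex q f) ((∑ S, (S.card : ℝ) * hat p f S ^ 2) / (p * (1 - p))) p := by
  have := HasDerivAt.fun_sum (u := univ) fun x _ => (hasDerivAt_wt h0 h1 x).mul_const (f x)
  refine this.congr_deriv ?_
  have hq : 1 - p ≠ 0 := by linarith
  have e1 : ∀ i, Ex p (fun x => f x * (bif x i then p⁻¹ else -(1 - p)⁻¹)) * (p * (1 - p)) =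
      ∑ S, (if i ∈ S then 1 else 0) * hat p f S ^ 2 := by
    intro i
    have e2 : ∑ S, (if i ∈ S then 1 else 0) * hat p f S ^ 2 =
        Ex p fun x => f x * (f x - cond p {i}ᶜ f x) := by
      rw [parseval h0 h1]
      refine sum_congr rfl fun S _ => ?_
      rw [hat_sub, hat_cond h0 h1]
      by_cases h : i ∈ S
      · have : ¬S ⊆ {i}ᶜ := fun h' => by simpa using h' h
        simp [h, this, sq]
      · have : S ⊆ {i}ᶜ := fun j hj => by
          simp only [mem_compl, mem_singleton]; rintro rfl; exact h hj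
        simp [h, this]
    have e3 : ∀ x, cond p {i}ᶜ f x = p * f (Function.update x i true) +
        (1 - p) * f (Function.update x i false) := by
      intro x
      unfold cond
      simp only [piecewise_compl, piecewise_singleton]
      exact Ex_coord i fun b => f (Function.update x i b)
    rw [e2, Ex_update i, Ex_update i fun x => f x * (f x - cond p {i}ᶜ f x), ← Ex_mul_right]
    congr 1
    funext x
    simp only [e3, Function.update_self, Function.update_idem, Bool.cond_true, Bool.cond_false]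
    have h := hf x i
    generalize f (Function.update x i true) = a at *
    generalize f (Function.update x i false) = b at *
    have : a = b + (a - b) := by ring
    rcases h with h | h <;> rw [this, h] <;> field_simp <;> ring
  rw [eq_div_iff (mul_ne_zero h0.ne' hq)]
  have e4 : ∑ x, (∑ i, wt p x * (bif x i then p⁻¹ else -(1 - p)⁻¹)) * f x =
      ∑ i, Ex p (fun x => f x * (bif x i then p⁻¹ else -(1 - p)⁻¹)) := by
    simp only [Ex, sum_mul]
    rw [sum_comm]
    exact sum_congr rfl fun _ _ => sum_congr rfl fun _ _ => by ring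
  rw [e4, sum_mul]
  simp only [e1]
  rw [sum_comm]
  refine sum_congr rfl fun S _ => ?_
  rw [← sum_mul]
  simp

theorem hat_perm (τ : Equiv.Perm ι) (f : (ι → Bool) → ℝ) (hf : ∀ x, f (fun i => x (τ i)) = f x)
    (T : Finset ι) : hat p f (T.map τ.toEmbedding) = hat p f T := by
  unfold hat Ex
  refine sum_nbij' (fun x i => x (τ i)) (fun x i => x (τ.symm i)) (by simp) (by simp)
    (fun x _ => by simp) (fun x _ => by simp) fun x _ => ?_
  beta_reduce
  rw [hf]
  congr 1
  · exact (Equiv.prod_comp τ fun i => w p (x i)).symm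
  · simp [chi]

end Vale.Agent.P063
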