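import Vale.Agent.P063.Defs
import Vale.Agent.P063.Level

/-!
Low-degree Fourier weight of symmetric functions of hypergraphs.
-/

open Finset

set_option linter.unusedVariables false

namespace Vale.Agent.P063

variable {n r : ℕ} {p : ℝ}

def edgePerm (σ : Equiv.Perm (Fin n)) : Equiv.Perm (Edge n r) where
  toFun := relabel σ
  invFun := relabel σ.symm
  left_inv e := by ext; simp [relabel]
  right_inv e := by ext; simp [relabel]

def star (U : Finset (Fin n)) (v : Fin n) : Finset (Edge n r) := univ.filter fun e => e.1 ∩ U = {v}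
def out (U : Finset (Fin n)) : Finset (Edge n r) := univ.filter fun e => Disjoint e.1 U
def deg (S : Finset (Edge n r)) (v : Fin n) : ℕ := (S.filter fun e => v ∈ e.1).card

theorem disjoint_star_out (U : Finset (Fin n)) (v : Fin n) :
    Disjoint (star U v : Finset (Edge n r)) (out U) := by
  rw [disjoint_left]
  intro e h1 h2
  simp only [star, out, mem_filter, mem_univ, true_and, disjoint_iff_inter_eq_empty] at h1 h2
  rw [h2] at h1
  exact singleton_ne_empty v h1.symm

theorem relabel_swap_out {U : Finset (Fin n)} {v v' : Fin n} (hv : v ∈ U) (hv' : v' ∈ U)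
    {e : Edge n r} (he : e ∈ out U) : relabel (Equiv.swap v v') e = e := by
  simp only [out, mem_filter, mem_univ, true_and] at he
  have h1 : v ∉ e.1 := fun h => disjoint_left.1 he h hv
  have h2 : v' ∉ e.1 := fun h => disjoint_left.1 he h hv'
  ext u
  simp only [relabel, mem_map_equiv, Equiv.symm_swap, Equiv.swap_apply_def]
  split_ifs with a b
  · subst a; simp [h1, h2]
  · subst b; simp [h1, h2]
  · rfl

theorem swap_mem {U : Finset (Fin n)} {v v' : Fin n} (hv : v ∈ U) (hv' : v' ∈ U) (u : Fin n) :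
    Equiv.swap v v' u ∈ U ↔ u ∈ U := by
  rw [Equiv.swap_apply_def]
  split_ifs with a b
  · subst a; simp [hv, hv']
  · subst b; simp [hv, hv']
  · rfl

theorem relabel_swap_star {U : Finset (Fin n)} {v v' : Fin n} (hv : v ∈ U) (hv' : v' ∈ U)
    {e : Edge n r} (he : e ∈ star U v) : relabel (Equiv.swap v v') e ∈ star U v' := by
  simp only [star, mem_filter, mem_univ, true_and] at he ⊢
  ext u
  have := Finset.ext_iff.1 he (Equiv.swap v v' u)
  simp only [mem_inter, swap_mem hv hv', mem_singleton, Equiv.swap_apply_eq_iff,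
    Equiv.swap_apply_left] at this
  simp only [relabel, mem_inter, mem_map_equiv, Equiv.symm_swap, mem_singleton, this]

theorem star_sym (h0 : 0 < p) (h1 : p < 1) (f : (Edge n r → Bool) → ℝ) (hf : ∀ x, f x = 0 ∨ f x = 1)
    (hs : ∀ σ x, f (fun e => x (relabel σ e)) = f x) {U : Finset (Fin n)} {v : Fin n} (hv : v ∈ U)
    (y : Edge n r → Bool) :
    ∑ T with T ⊆ star U v ∧ T ≠ ∅, hat p (res (out U) f y) T ^ 2 ≤ (√(U.card : ℝ))⁻¹ ^ 2 := by
  set F := res (out U) f y with hF
  have hU : (0 : ℝ) < U.card := by exact_mod_cast card_pos.2 ⟨v, hv⟩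
  have eq : ∀ v' ∈ U, ∑ T with T ⊆ star U v ∧ T ≠ ∅, hat p F T ^ 2 =
      ∑ T with T ⊆ star U v' ∧ T ≠ ∅, hat p F T ^ 2 := by
    intro v' hv'
    have inv : ∀ x, F (fun e => x (edgePerm (Equiv.swap v v') e)) = F x := by
      intro x
      simp only [hF, res]
      rw [← hs (Equiv.swap v v') ((out U).piecewise y x)]
      congr 1
      funext e
      by_cases he : e ∈ out U
      · simp [piecewise, he, relabel_swap_out hv hv' he]
      · have : relabel (Equiv.swap v v') e ∉ out U := by
          intro h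
          have h2 := relabel_swap_out hv hv' h
          have h3 : relabel (Equiv.swap v v') e = e := (edgePerm (Equiv.swap v v')).injective h2
          exact he (h3 ▸ h)
        simp [piecewise, he, this, edgePerm]
    have invol : ∀ e : Edge n r, edgePerm (Equiv.swap v v') (edgePerm (Equiv.swap v v') e) = e := by
      intro e; ext; simp [edgePerm, relabel]
    refine sum_nbij' (fun T => T.map (edgePerm (Equiv.swap v v')).toEmbedding)
      (fun T => T.map (edgePerm (Equiv.swap v v')).toEmbedding) ?_ ?_ ?_ ?_ ?_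
    · intro T hT
      simp only [mem_filter, mem_univ, true_and, ne_eq, map_eq_empty] at hT ⊢
      refine ⟨fun e he => ?_, hT.2⟩
      obtain ⟨e', h, rfl⟩ := mem_map.1 he
      exact relabel_swap_star hv hv' (hT.1 h)
    · intro T hT
      simp only [mem_filter, mem_univ, true_and, ne_eq, map_eq_empty] at hT ⊢
      refine ⟨fun e he => ?_, hT.2⟩
      obtain ⟨e', h, rfl⟩ := mem_map.1 he
      rw [Equiv.swap_comm]
      exact relabel_swap_star hv' hv (hT.1 h)
    · intro T _
      ext e
      simp only [mem_map, Equiv.coe_toEmbedding, exists_exists_and_eq_and, invol, exists_eq_right]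
    · intro T _
      ext e
      simp only [mem_map, Equiv.coe_toEmbedding, exists_exists_and_eq_and, invol, exists_eq_right]
    · intro T _
      rw [hat_perm _ F inv]
  have tot : ∑ v' ∈ U, ∑ T with T ⊆ star U v' ∧ T ≠ ∅, hat p F T ^ 2 ≤ 1 := by
    have : Ex p (fun x => F x ^ 2) ≤ 1 := by
      refine (Ex_mono h0 h1 fun x => ?_).trans (Ex_const 1).le
      rcases hf ((out U).piecewise y x) with h | h <;> simp [hF, res, h]
    refine le_trans ?_ this
    rw [parseval_sq h0 h1]
    simp only [sum_filter]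
    rw [sum_comm]
    refine sum_le_sum fun T _ => ?_
    rw [← sum_filter, sum_const, nsmul_eq_mul]
    have : (U.filter fun v' => T ⊆ star U v' ∧ T ≠ ∅).card ≤ 1 := by
      refine card_le_one.2 fun a ha b hb => ?_
      obtain ⟨e, he⟩ := nonempty_iff_ne_empty.2 (mem_filter.1 ha).2.2
      have a1 := (mem_filter.1 ((mem_filter.1 ha).2.1 he)).2
      have a2 := (mem_filter.1 ((mem_filter.1 hb).2.1 he)).2
      exact singleton_injective (a1.symm.trans a2)
    have : ((U.filter fun v' => T ⊆ star U v' ∧ T ≠ ∅).card : ℝ) ≤ 1 := by exact_mod_cast this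
    nlinarith [sq_nonneg (hat p F T)]
  rw [← sum_congr rfl eq, sum_const, nsmul_eq_mul] at tot
  rw [inv_pow, Real.sq_sqrt hU.le, inv_eq_one_div, le_div_iff₀ hU]
  linarith

theorem sum_deg (S : Finset (Edge n r)) : ∑ v, deg S v = r * S.card := by
  simp only [deg, card_filter]
  rw [sum_comm]
  have : ∀ e : Edge n r, ∑ v, (if v ∈ e.1 then 1 else 0) = r := by
    intro e
    simp [e.2]
  simp [this, mul_comm]

def verts (S : Finset (Edge n r)) : Finset (Fin n) := S.biUnion fun e => e.1

theorem card_verts (S : Finset (Edge n r)) : (verts S).card ≤ r * S.card := by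
  refine card_biUnion_le.trans ?_
  rw [sum_congr rfl fun (e : Edge n r) _ => e.2, sum_const, smul_eq_mul, mul_comm]

theorem deg_le (S : Finset (Edge n r)) (v : Fin n) : deg S v ≤ (verts S).card ^ (r - 1) := by
  refine le_trans ?_ (Nat.choose_le_pow _ _)
  rw [← card_powersetCard]
  refine card_le_card_of_injOn (fun e => e.1.erase v) (fun e he => ?_) (fun e he e' he' h => ?_)
  · have he := mem_filter.1 (mem_coe.1 he)
    refine mem_coe.2 (mem_powersetCard.2 ⟨(erase_subset _ _).trans ?_, ?_⟩)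
    · exact subset_biUnion_of_mem (fun e : Edge n r => e.1) he.1
    · rw [card_erase_of_mem he.2, e.2]
  · have a := (mem_filter.1 (mem_coe.1 he)).2
    have b := (mem_filter.1 (mem_coe.1 he')).2
    apply Subtype.ext
    rw [← insert_erase a, ← insert_erase b]
    simp only at h
    rw [h]

theorem exists_low (hr : 1 ≤ r) {S : Finset (Edge n r)} (hS : S ≠ ∅) {d D : ℕ} (hd : S.card ≤ d)
    (hD : (r * d) ^ (r - 1) < (D + 1) ^ r) : ∃ v ∈ verts S, deg S v ≤ D := by
  by_contra hc
  push Not at hc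
  obtain ⟨e, he⟩ := nonempty_iff_ne_empty.2 hS
  obtain ⟨v, hv⟩ : e.1.Nonempty := card_pos.1 (by rw [e.2]; omega)
  have hv' : v ∈ verts S := mem_biUnion.2 ⟨e, he, hv⟩
  have h1 : D + 1 ≤ (verts S).card ^ (r - 1) := (hc v hv').trans_le (deg_le S v)
  have h2 : (verts S).card * (D + 1) ≤ r * d := by
    have := card_nsmul_le_sum (verts S) (deg S) (D + 1) fun v hv => hc v hv
    rw [smul_eq_mul] at this
    refine this.trans ((sum_le_sum_of_subset (subset_univ _)).trans ?_)
    rw [sum_deg]
    exact Nat.mul_le_mul_left _ hd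
  have h3 := Nat.pow_le_pow_left h2 (r - 1)
  rw [mul_pow] at h3
  have h4 : (D + 1) ^ r = (D + 1) * (D + 1) ^ (r - 1) := by
    rw [← pow_succ']; congr 1; omega
  have := Nat.mul_le_mul_right ((D + 1) ^ (r - 1)) h1
  omega

def blk (k j : ℕ) (v : Fin n) : Finset (Fin n) := insert v (univ.filter fun u => u.1 % k = j)

theorem card_blk {k j : ℕ} (hj : j < k) (v : Fin n) : n ≤ 2 * k * (blk k j v).card := by
  have h1 : 1 ≤ (blk k j v).card := card_pos.2 ⟨v, mem_insert_self _ _⟩
  have h2 : n / k ≤ (blk k j v).card := by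
    have hb : ∀ i < n / k, i * k + j < n := by
      intro i hi
      have := Nat.div_mul_le_self n k
      have : (i + 1) * k ≤ n / k * k := Nat.mul_le_mul_right _ hi
      nlinarith
    have := card_le_card_of_injOn (s := (univ : Finset (Fin (n / k)))) (t := blk k j v)
      (fun i => ⟨i.1 * k + j, hb i.1 i.2⟩) (fun i _ => ?_) (fun i _ i' _ h => ?_)
    · simpa using this
    · refine mem_coe.2 (mem_insert_of_mem (mem_filter.2 ⟨mem_univ _, ?_⟩))
      simp [Nat.mod_eq_of_lt hj]
    · simp only [Fin.mk.injEq, add_left_inj] at h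
      exact Fin.ext (Nat.eq_of_mul_eq_mul_right (by omega) h)
  have h3 := Nat.lt_div_mul_add (a := n) (b := k) (by omega)
  nlinarith

theorem exists_blk {S : Finset (Edge n r)} {d D : ℕ} (hd : S.card ≤ d) {v : Fin n}
    (hv : v ∈ verts S) (hD : deg S v ≤ D) : ∃ j < r * d + 1,
    S ⊆ star (blk (r * d + 1) j v) v ∪ out (blk (r * d + 1) j v) ∧
      S ∩ star (blk (r * d + 1) j v) v ≠ ∅ ∧ (S ∩ star (blk (r * d + 1) j v) v).card ≤ D := by
  obtain ⟨j, hj, hj'⟩ : ∃ j ∈ range (r * d + 1),
      j ∉ (verts S).image fun u => u.1 % (r * d + 1) := by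
    refine exists_mem_notMem_of_card_lt_card ?_
    rw [card_range]
    exact card_image_le.trans_lt ((card_verts S).trans_lt
      (Nat.lt_succ_of_le (Nat.mul_le_mul_left _ hd)))
  have key : ∀ e ∈ S, ∀ u ∈ e.1, u ∈ blk (r * d + 1) j v ↔ u = v := by
    intro e he u hu
    simp only [blk, mem_insert, mem_filter, mem_univ, true_and, or_iff_left_iff_imp]
    intro h
    exact absurd (mem_image.2 ⟨u, mem_biUnion.2 ⟨e, he, hu⟩, h⟩) hj'
  have st : ∀ e ∈ S, v ∈ e.1 → e ∈ star (blk (r * d + 1) j v) v := by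
    intro e he hve
    simp only [star, mem_filter, mem_univ, true_and]
    ext u
    simp only [mem_inter, mem_singleton]
    exact ⟨fun h => (key e he u h.1).1 h.2, fun h => by rw [h]; exact ⟨hve, mem_insert_self _ _⟩⟩
  refine ⟨j, mem_range.1 hj, fun e he => ?_, ?_, le_trans (card_le_card fun e he => ?_) hD⟩
  · by_cases hve : v ∈ e.1
    · exact mem_union_left _ (st e he hve)
    · refine mem_union_right _ (mem_filter.2 ⟨mem_univ _, disjoint_left.2 fun u hu hu' => ?_⟩)
      exact hve ((key e he u hu).1 hu' ▸ hu)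
  · obtain ⟨e, he, hve⟩ := mem_biUnion.1 hv
    exact nonempty_iff_ne_empty.1 ⟨e, mem_inter.2 ⟨he, st e he hve⟩⟩
  · obtain ⟨a, b⟩ := mem_inter.1 he
    have := (mem_filter.1 b).2
    exact mem_filter.2 ⟨a, (mem_inter.1 (this ▸ mem_singleton_self v)).1⟩

theorem low_weight (h0 : 0 < p) (h1 : p < 1) (hr : 1 ≤ r) (hn : 1 ≤ n)
    (f : (Edge n r → Bool) → ℝ)
    (hf : ∀ x, f x = 0 ∨ f x = 1) (hs : ∀ σ x, f (fun e => x (relabel σ e)) = f x) {d D : ℕ}
    (hD : (r * d) ^ (r - 1) < (D + 1) ^ r) :
    ∑ S with S ≠ ∅ ∧ S.card ≤ d, hat p f S ^ 2 ≤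
      ((r * d + 1 : ℕ) : ℝ) * ((4 / sg p) ^ D * √(2 * ((r * d + 1 : ℕ) : ℝ) / n)) *
        (2 * r * ∑ S, (S.card : ℝ) * hat p f S ^ 2) := by
  have hK := eight_le h0 h1
  set k := r * d + 1 with hk
  have s1 : ∑ S with S ≠ ∅ ∧ S.card ≤ d, hat p f S ^ 2 ≤ ∑ v, ∑ j ∈ range k,
      ∑ S with S ⊆ star (blk k j v) v ∪ out (blk k j v) ∧ S ∩ star (blk k j v) v ≠ ∅ ∧
        (S ∩ star (blk k j v) v).card ≤ D, hat p f S ^ 2 := by
    simp only [sum_filter]
    rw [← sum_product', sum_comm]
    refine sum_le_sum fun S _ => ?_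
    split_ifs with h
    · obtain ⟨v, hv, hv'⟩ := exists_low hr h.1 h.2 hD
      obtain ⟨j, hj, hj'⟩ := exists_blk h.2 hv hv'
      refine le_trans (le_of_eq ?_) (single_le_sum (a := (v, j)) (fun z _ => ?_) ?_)
      · rw [if_pos hj']
      · split_ifs <;> positivity
      · simp only [mem_product, mem_univ, mem_range, true_and]; exact hj
    · exact sum_nonneg fun z _ => by split_ifs <;> positivity
  refine s1.trans ?_
  have s2 : ∀ v, ∀ j ∈ range k,
      ∑ S with S ⊆ star (blk k j v) v ∪ out (blk k j v) ∧ S ∩ star (blk k j v) v ≠ ∅ ∧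
        (S ∩ star (blk k j v) v).card ≤ D, hat p f S ^ 2 ≤
      (4 / sg p) ^ D * √(2 * (k : ℝ) / n) * (2 * ∑ S, (deg S v : ℝ) * hat p f S ^ 2) := by
    intro v j hj
    refine (star_bound h0 h1 f hf (disjoint_star_out _ v) D (by positivity)
      (star_sym h0 h1 f hf hs (U := blk k j v) (mem_insert_self v _))).trans ?_
    have b1 : (√((blk k j v).card : ℝ))⁻¹ ≤ √(2 * (k : ℝ) / n) := by
      rw [← Real.sqrt_inv]
      refine Real.sqrt_le_sqrt ?_
      have c1 : (n : ℝ) ≤ 2 * k * (blk k j v).card := by exact_mod_cast card_blk (mem_range.1 hj) v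
      have c2 : (0 : ℝ) < (blk k j v).card := by
        exact_mod_cast card_pos.2 ⟨v, mem_insert_self _ _⟩
      rw [inv_eq_one_div, div_le_div_iff₀ c2 (by exact_mod_cast hn)]
      linarith
    have b2 : ∑ S, ((S ∩ star (blk k j v) v).card : ℝ) * hat p f S ^ 2 ≤
        ∑ S, (deg S v : ℝ) * hat p f S ^ 2 := by
      refine sum_le_sum fun S _ => mul_le_mul_of_nonneg_right ?_ (sq_nonneg _)
      refine Nat.cast_le.2 (card_le_card fun e he => ?_)
      obtain ⟨a, b⟩ := mem_inter.1 he
      have := (mem_filter.1 b).2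
      exact mem_filter.2 ⟨a, (mem_inter.1 (this ▸ mem_singleton_self v)).1⟩
    have b3 : 0 ≤ ∑ S, ((S ∩ star (blk k j v) v).card : ℝ) * hat p f S ^ 2 :=
      sum_nonneg fun _ _ => by positivity
    exact mul_le_mul (mul_le_mul_of_nonneg_left b1 (by positivity)) (by linarith) (by linarith)
      (by positivity)
  refine (sum_le_sum fun v _ => sum_le_sum (s2 v)).trans (le_of_eq ?_)
  simp only [sum_const, card_range, nsmul_eq_mul, ← mul_sum]
  rw [sum_comm]
  simp only [← sum_mul, ← Nat.cast_sum, sum_deg]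
  push_cast
  simp only [mul_assoc, ← mul_sum]

end Vale.Agent.P063
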