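import Vale.Agent.P063.Hyper

/-!
The total influence bound and the threshold width.
-/

open Finset

set_option linter.unusedVariables false

namespace Vale.Agent.P063

variable {n r : ℕ} {p : ℝ}

theorem var_eq (h0 : 0 < p) (h1 : p < 1) {ι : Type} [Fintype ι] [DecidableEq ι]
    (f : (ι → Bool) → ℝ) (hf : ∀ x, f x = 0 ∨ f x = 1) :
    Ex p f * (1 - Ex p f) = ∑ S with S ≠ ∅, hat p f S ^ 2 := by
  have e : Ex p f = ∑ S, hat p f S ^ 2 := by
    rw [← parseval_sq h0 h1]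
    congr 1
    funext x
    rcases hf x with h | h <;> simp [h]
  rw [filter_ne', ← add_sum_erase _ _ (mem_univ ∅), hat_empty] at *
  linarith

theorem sg_log (h0 : 0 < p) (h1 : p < 1) : p * (1 - p) * Real.log (4 / sg p) ^ 2 ≤ 8 := by
  have hs := sg_pos h0 h1
  have hK := eight_le h0 h1
  have l0 : 0 ≤ Real.log (4 / sg p) := Real.log_nonneg (by linarith)
  have l1 : Real.log (4 / sg p) ≤ 2 * √(4 / sg p) := by
    have := Real.log_le_sub_one_of_pos (Real.sqrt_pos.2 (by linarith : 0 < 4 / sg p))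
    rw [Real.log_sqrt (by linarith)] at this
    linarith
  have l2 := pow_le_pow_left₀ l0 l1 2
  rw [mul_pow, Real.sq_sqrt (by linarith)] at l2
  rw [← sg_sq h0 h1]
  have : sg p ^ 2 * (2 ^ 2 * (4 / sg p)) = 16 * sg p := by field_simp; ring
  nlinarith [sg_le h0 h1, mul_le_mul_of_nonneg_left l2 (sq_nonneg (sg p))]

theorem exp_bounds {r : ℕ} (hr : 2 ≤ r) :
    0 ≤ (r : ℝ) / (r - 1) ∧ ∀ x : ℝ, 1 ≤ x → x ^ ((r : ℝ) / (r - 1)) ≤ x ^ 2 := by
  have hr' : (2 : ℝ) ≤ r := by exact_mod_cast hr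
  refine ⟨div_nonneg (by linarith) (by linarith), fun x hx => ?_⟩
  have s2 : (r : ℝ) / (r - 1) ≤ 2 := by rw [div_le_iff₀ (by linarith)]; linarith
  have := Real.rpow_le_rpow_of_exponent_le hx s2
  rwa [Real.rpow_two] at this

theorem params1 {N K k L : ℝ} {D : ℕ} (hN : 2 ≤ N) (hK : 8 ≤ K) (lK : 1 ≤ Real.log K)
    (D2 : D * (8 * Real.log K) ≤ Real.log N) (k0 : 0 ≤ k) (hk : k ≤ (D : ℝ) ^ 2 + 1)
    (hL : L ≤ Real.log N ^ 2) : L * (k * (K ^ D * √(2 * k / N))) ≤ 5120 := by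
  obtain ⟨u, hu⟩ : ∃ u, u = N ^ (1 / 16 : ℝ) := ⟨_, rfl⟩
  have u1 : 1 ≤ u := hu ▸ Real.one_le_rpow (by linarith) (by norm_num)
  have u16 : u ^ 16 = N := by
    rw [hu, ← Real.rpow_natCast, ← Real.rpow_mul (by linarith)]; norm_num
  have l0 : 0 ≤ Real.log N := Real.log_nonneg (by linarith)
  have lu : Real.log N ≤ 16 * u := by
    have := Real.log_le_rpow_div (x := N) (ε := 1 / 16) (by linarith) (by norm_num)
    rw [← hu] at this
    linarith
  have KD : K ^ D ≤ u ^ 2 := by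
    rw [← Real.log_le_log_iff (by positivity) (by positivity), Real.log_pow, Real.log_pow, hu,
      Real.log_rpow (by linarith)]
    push_cast
    linarith
  have D0 : (0 : ℝ) ≤ D := Nat.cast_nonneg D
  have Du : (D : ℝ) ≤ 2 * u := by nlinarith
  have kk : k ≤ 5 * u ^ 2 := by nlinarith
  have sq1 : √(2 * k / N) ≤ 4 / u ^ 7 := by
    refine Real.sqrt_le_iff.2 ⟨by positivity, ?_⟩
    rw [← u16, div_pow, div_le_div_iff₀ (by positivity) (by positivity)]
    have : 2 * k * (u ^ 7) ^ 2 ≤ 2 * (5 * u ^ 2) * (u ^ 7) ^ 2 := by gcongr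
    have : 0 ≤ u ^ 16 := by positivity
    linarith
  have L1 : L ≤ 256 * u ^ 2 := hL.trans (by nlinarith)
  calc _ ≤ (256 * u ^ 2) * (5 * u ^ 2 * (u ^ 2 * (4 / u ^ 7))) := by gcongr
    _ = 5120 / u := by field_simp; ring
    _ ≤ _ := div_le_self (by positivity) u1

theorem params {r : ℕ} (hr : 2 ≤ r) {N K c : ℝ} (hN : 2 ≤ N) (hK : 8 ≤ K) (lK : 1 ≤ Real.log K)
    (c0 : 0 < c) (hsl : c * Real.log K ^ 2 ≤ 8) (hc : 8 * Real.log K ≤ Real.log N) :
    ∃ d D : ℕ, (r * d) ^ (r - 1) < (D + 1) ^ r ∧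
      Real.log N ^ ((r : ℝ) / (r - 1)) * (((r * d + 1 : ℕ) : ℝ) *
        (K ^ D * √(2 * ((r * d + 1 : ℕ) : ℝ) / N))) ≤ 5120 ∧
      c * Real.log N ^ ((r : ℝ) / (r - 1)) ≤ 2048 * (((d : ℝ) + 1) * r) := by
  obtain ⟨s0, rp⟩ := exp_bounds hr
  have hr' : (2 : ℝ) ≤ r := by exact_mod_cast hr
  obtain ⟨s, hs'⟩ : ∃ s, s = (r : ℝ) / (r - 1) := ⟨_, rfl⟩
  rw [← hs'] at s0 rp ⊢
  have x1 : 1 ≤ Real.log N / (8 * Real.log K) := by rw [le_div_iff₀ (by linarith)]; linarith
  obtain ⟨D, D1, D2, D3⟩ : ∃ D : ℕ, (1 : ℝ) ≤ D ∧ (D : ℝ) ≤ Real.log N / (8 * Real.log K) ∧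
      Real.log N / (8 * Real.log K) < D + 1 :=
    ⟨⌊Real.log N / (8 * Real.log K)⌋₊, by exact_mod_cast Nat.le_floor (by exact_mod_cast x1),
      Nat.floor_le (by linarith), Nat.lt_floor_add_one _⟩
  rw [le_div_iff₀ (by linarith)] at D2
  rw [div_lt_iff₀ (by linarith)] at D3
  have Ds : 0 < (D : ℝ) ^ s := Real.rpow_pos_of_pos (by linarith) _
  obtain ⟨d, d2, d3⟩ : ∃ d : ℕ, (d : ℝ) ≤ (D : ℝ) ^ s / r ∧ (D : ℝ) ^ s / r < d + 1 :=
    ⟨⌊(D : ℝ) ^ s / r⌋₊, Nat.floor_le (by positivity), Nat.lt_floor_add_one _⟩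
  rw [le_div_iff₀ (by linarith)] at d2
  rw [div_lt_iff₀ (by linarith)] at d3
  refine ⟨d, D, ?_, ?_, ?_⟩
  · have b1 : ((r : ℝ) * d) ^ (r - 1) ≤ ((D : ℝ) ^ s) ^ (r - 1) :=
      pow_le_pow_left₀ (by positivity) (by linarith) _
    have b2 : ((D : ℝ) ^ s) ^ (r - 1) = (D : ℝ) ^ r := by
      rw [← Real.rpow_natCast, ← Real.rpow_mul (by linarith), Nat.cast_sub (by omega), hs',
        Nat.cast_one, div_mul_cancel₀ _ (by linarith), Real.rpow_natCast]
    have b3 : (D : ℝ) ^ r < ((D : ℝ) + 1) ^ r :=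
      pow_lt_pow_left₀ (by linarith) (by linarith) (by omega)
    exact_mod_cast (b1.trans b2.le).trans_lt b3
  · refine params1 hN hK lK D2 (by positivity) ?_ (rp _ (by linarith))
    push_cast
    linarith [rp D D1]
  · have c1 : Real.log N ^ s ≤ (16 * Real.log K) ^ 2 * (D : ℝ) ^ s := by
      have : Real.log N ≤ 16 * Real.log K * D := by nlinarith
      refine (Real.rpow_le_rpow (by linarith) this s0).trans ?_
      rw [Real.mul_rpow (by linarith) (by linarith)]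
      exact mul_le_mul_of_nonneg_right (rp _ (by linarith)) Ds.le
    calc _ ≤ c * ((16 * Real.log K) ^ 2 * (D : ℝ) ^ s) := by gcongr
      _ = 256 * (c * Real.log K ^ 2) * (D : ℝ) ^ s := by ring
      _ ≤ 256 * 8 * (((d : ℝ) + 1) * r) := by gcongr
      _ = _ := by ring

theorem influence (h0 : 0 < p) (h1 : p < 1) (hr : 2 ≤ r) (hn : r ≤ n)
    (f : (Edge n r → Bool) → ℝ)
    (hf : ∀ x, f x = 0 ∨ f x = 1) (hs : ∀ σ x, f (fun e => x (relabel σ e)) = f x) :
    p * (1 - p) * Real.log n ^ ((r : ℝ) / (r - 1)) * (Ex p f * (1 - Ex p f)) ≤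
      20000 * r * ∑ S, (S.card : ℝ) * hat p f S ^ 2 := by
  rw [var_eq h0 h1 f hf]
  obtain ⟨s0, rp⟩ := exp_bounds hr
  have I0 : 0 ≤ ∑ S, (S.card : ℝ) * hat p f S ^ 2 := sum_nonneg fun _ _ => by positivity
  have hr' : (2 : ℝ) ≤ r := by exact_mod_cast hr
  have hn' : (2 : ℝ) ≤ n := by exact_mod_cast hr.trans hn
  have hK := eight_le h0 h1
  have hsl := sg_log h0 h1
  have lK : 1 ≤ Real.log (4 / sg p) := by
    rw [Real.le_log_iff_exp_le (by linarith)]
    linarith [Real.exp_one_lt_d9]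
  have l0 : 0 ≤ Real.log n := Real.log_nonneg (by linarith)
  have pq : 0 < p * (1 - p) := by nlinarith
  have pq1 : p * (1 - p) ≤ 1 := by nlinarith
  have V0 : 0 ≤ ∑ S with S ≠ ∅, hat p f S ^ 2 := sum_nonneg fun _ _ => sq_nonneg _
  have L0 : 0 ≤ Real.log n ^ ((r : ℝ) / (r - 1)) := Real.rpow_nonneg l0 _
  by_cases hc : Real.log n < 8 * Real.log (4 / sg p)
  · have a1 : ∑ S with S ≠ ∅, hat p f S ^ 2 ≤ ∑ S, (S.card : ℝ) * hat p f S ^ 2 := by
      rw [sum_filter]
      refine sum_le_sum fun S _ => ?_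
      split_ifs with h
      · have : (1 : ℝ) ≤ S.card := by exact_mod_cast card_pos.2 (nonempty_iff_ne_empty.2 h)
        exact le_mul_of_one_le_left (sq_nonneg _) this
      · positivity
    have a2 : Real.log n ^ ((r : ℝ) / (r - 1)) ≤ (8 * Real.log (4 / sg p)) ^ 2 :=
      (Real.rpow_le_rpow l0 hc.le s0).trans (rp _ (by linarith))
    have a3 : p * (1 - p) * Real.log n ^ ((r : ℝ) / (r - 1)) ≤ 512 := by
      have := mul_le_mul_of_nonneg_left a2 pq.le
      linarith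
    calc _ ≤ 512 * _ := mul_le_mul a3 a1 V0 (by norm_num)
      _ ≤ _ := mul_le_mul_of_nonneg_right (by linarith) I0
  push Not at hc
  obtain ⟨d, D, hlow, q1, q2⟩ := params hr hn' hK lK pq hsl hc
  have low := low_weight h0 h1 (by omega) (by omega) f hf hs hlow
  have high : ((d : ℝ) + 1) * ∑ S with S ≠ ∅ ∧ ¬S.card ≤ d, hat p f S ^ 2 ≤
      ∑ S, (S.card : ℝ) * hat p f S ^ 2 := by
    rw [sum_filter, mul_sum]
    refine sum_le_sum fun S _ => ?_
    split_ifs with h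
    · have : (d : ℝ) + 1 ≤ S.card := by exact_mod_cast not_le.1 h.2
      exact mul_le_mul_of_nonneg_right this (sq_nonneg _)
    · rw [mul_zero]; positivity
  rw [← sum_filter_add_sum_filter_not _ (fun S : Finset (Edge n r) => S.card ≤ d), filter_filter,
    filter_filter, mul_add]
  have w0 : 0 ≤ ∑ S with S ≠ ∅ ∧ S.card ≤ d, hat p f S ^ 2 := sum_nonneg fun _ _ => sq_nonneg _
  have w1 : 0 ≤ ∑ S with S ≠ ∅ ∧ ¬S.card ≤ d, hat p f S ^ 2 := sum_nonneg fun _ _ => sq_nonneg _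
  generalize ∑ S with S ≠ ∅ ∧ S.card ≤ d, hat p f S ^ 2 = W0 at *
  generalize ∑ S with S ≠ ∅ ∧ ¬S.card ≤ d, hat p f S ^ 2 = W1 at *
  generalize ∑ S : Finset (Edge n r), (S.card : ℝ) * hat p f S ^ 2 = I at *
  generalize Real.log n ^ ((r : ℝ) / (r - 1)) = L at *
  generalize ((r * d + 1 : ℕ) : ℝ) * ((4 / sg p) ^ D * √(2 * ((r * d + 1 : ℕ) : ℝ) / n)) = Z at *
  have rI : 0 ≤ r * I := by positivity
  have t1 : p * (1 - p) * L * W0 ≤ 10240 * (r * I) := by
    calc _ ≤ 1 * L * W0 := by gcongr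
      _ ≤ 1 * L * (Z * (2 * r * I)) := by gcongr
      _ = L * Z * (2 * (r * I)) := by ring
      _ ≤ 5120 * (2 * (r * I)) := by gcongr
      _ = _ := by ring
  have t2 : p * (1 - p) * L * W1 ≤ 2048 * (r * I) := by
    calc _ ≤ 2048 * (((d : ℝ) + 1) * r) * W1 := mul_le_mul_of_nonneg_right q2 w1
      _ = 2048 * (r * (((d : ℝ) + 1) * W1)) := by ring
      _ ≤ _ := by gcongr
  linarith

open scoped Classical in
theorem mu_eq (P : Set (Edge n r → Bool)) (q : ℝ) :
    mu q P = Ex q fun x => if x ∈ P then 1 else 0 := by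
  unfold mu Ex wt
  refine sum_congr rfl fun x _ => ?_
  by_cases h : x ∈ P
  · simp only [Set.indicator_of_mem h, h, if_true, mul_one]
    exact prod_congr rfl fun e _ => by cases x e <;> simp [w]
  · simp [h]

theorem continuous_mu (P : Set (Edge n r → Bool)) : Continuous fun q => mu q P := by
  simp only [mu_eq, Ex, wt]
  refine continuous_finsetSum _ fun x _ => Continuous.fun_mul ?_ continuous_const
  refine continuous_finsetProd _ fun e _ => ?_
  cases x e
  · exact continuous_const.sub continuous_id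
  · exact continuous_id

theorem mu_nonneg (P : Set (Edge n r → Bool)) {q : ℝ} (h0 : 0 ≤ q) (h1 : q ≤ 1) : 0 ≤ mu q P := by
  refine sum_nonneg fun x _ => Set.indicator_nonneg (fun x _ => prod_nonneg fun e _ => ?_) _
  split_ifs <;> linarith

theorem mu_le_one (P : Set (Edge n r → Bool)) {q : ℝ} (h0 : 0 ≤ q) (h1 : q ≤ 1) : mu q P ≤ 1 := by
  rw [mu_eq]
  refine le_trans ?_ (Ex_const (p := q) (ι := Edge n r) 1).le
  refine sum_le_sum fun x _ => mul_le_mul_of_nonneg_left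
    (by beta_reduce; split_ifs <;> norm_num) ?_
  refine prod_nonneg fun e _ => ?_
  cases x e <;> simp [w] <;> linarith

theorem mu_one {P : Set (Edge n r → Bool)} (hi : Increasing P) (hne : P.Nonempty) : mu 1 P = 1 := by
  obtain ⟨x, hx⟩ := hne
  have ht : (fun _ => true) ∈ P := hi x _ (fun _ _ => rfl) hx
  unfold mu
  rw [sum_eq_single (fun _ => true)]
  · simp [ht]
  · intro y _ hy
    obtain ⟨e, he⟩ := Function.ne_iff.1 hy
    refine Set.indicator_apply_eq_zero.2 fun _ => prod_eq_zero (mem_univ e) ?_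
    simp [he]
  · simp

theorem main (r : ℕ) (hr : 2 ≤ r) (ε : ℝ) (e0 : 0 < ε) (e1 : ε < 1 / 2) :
    ∃ C : ℝ, ∀ n ≥ r, ∀ P : Set (Edge n r → Bool), IsProperty P → Increasing P → P.Nonempty →
      P ≠ Set.univ → width ε P ≤ C * Real.log n ^ (-((r : ℝ) / (r - 1))) := by
  classical
  refine ⟨20000 * r / ε ^ 2, fun n hn P hP hi hne _ => ?_⟩
  have hr' : (2 : ℝ) ≤ r := by exact_mod_cast hr
  have hn' : (2 : ℝ) ≤ n := by exact_mod_cast hr.trans hn
  have lp : 0 < Real.log n := Real.log_pos (by linarith)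
  rw [Real.rpow_neg lp.le]
  set L := Real.log n ^ ((r : ℝ) / (r - 1)) with hL
  have L0 : 0 < L := Real.rpow_pos_of_pos lp _
  set f : (Edge n r → Bool) → ℝ := fun x => if x ∈ P then 1 else 0 with hf
  have hmu : (fun q => mu q P) = fun q => Ex q f := funext (mu_eq P)
  have der : ∀ q, 0 < q → q < 1 → HasDerivAt (fun q => mu q P)
      ((∑ S, (S.card : ℝ) * hat q f S ^ 2) / (q * (1 - q))) q := by
    intro q h0 h1
    rw [hmu]
    refine russo h0 h1 f fun x i => ?_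
    simp only [hf]
    by_cases a : Function.update x i false ∈ P
    · have : Function.update x i true ∈ P := by
        refine hi _ _ (fun e he => ?_) a
        by_cases h : e = i
        · subst h; simp
        · simpa [h] using he
      simp [a, this]
    · by_cases b : Function.update x i true ∈ P <;> simp [a, b]
  have mono : MonotoneOn (fun q => mu q P) (Set.Icc 0 1) := by
    refine monotoneOn_of_deriv_nonneg (convex_Icc 0 1) (continuous_mu P).continuousOn ?_ ?_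
    · rw [interior_Icc]
      exact fun q hq => (der q hq.1 hq.2).differentiableAt.differentiableWithinAt
    · rw [interior_Icc]
      intro q hq
      rw [(der q hq.1 hq.2).deriv]
      exact div_nonneg (sum_nonneg fun _ _ => by positivity) (by nlinarith [hq.1, hq.2])
  have bdd : ∀ a : ℝ, BddBelow {p : ℝ | p ∈ Set.Icc (0 : ℝ) 1 ∧ a ≤ mu p P} :=
    fun a => ⟨0, fun p hp => hp.1.1⟩
  have one : ∀ a : ℝ, a ≤ 1 → (1 : ℝ) ∈ {p : ℝ | p ∈ Set.Icc (0 : ℝ) 1 ∧ a ≤ mu p P} :=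
    fun a ha => ⟨⟨zero_le_one, le_rfl⟩, by rw [mu_one hi hne]; exact ha⟩
  have a0 : 0 ≤ crit P ε := le_csInf ⟨1, one ε (by linarith)⟩ fun p hp => hp.1.1
  have b1 : crit P (1 - ε) ≤ 1 := csInf_le (bdd _) (one _ (by linarith))
  unfold width
  set a := crit P ε with ha
  set b := crit P (1 - ε) with hb
  by_cases hab : b ≤ a
  · have : 0 ≤ 20000 * r / ε ^ 2 * L⁻¹ := by positivity
    linarith
  push Not at hab
  have key := (convex_Icc a b).mul_sub_le_image_sub_of_le_deriv (f := fun q => mu q P)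
    (continuous_mu P).continuousOn (C := L * ε ^ 2 / (20000 * r)) ?_ ?_ a ⟨le_rfl, hab.le⟩ b
    ⟨hab.le, le_rfl⟩ hab.le
  · have m1 := mu_le_one P (a0.trans hab.le) b1
    have m2 := mu_nonneg P a0 (hab.le.trans b1)
    have : L * ε ^ 2 / (20000 * r) * (b - a) ≤ 1 := by linarith
    rw [div_mul_eq_mul_div, div_le_one (by positivity)] at this
    rw [← div_eq_mul_inv, div_div, le_div_iff₀ (by positivity)]
    linarith
  · rw [interior_Icc]
    exact fun q hq => (der q (a0.trans_lt hq.1) (hq.2.trans_le b1)).differentiableAt.differentiableWithinAt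
  · rw [interior_Icc]
    intro q hq
    have h0 := a0.trans_lt hq.1
    have h1 := hq.2.trans_le b1
    rw [(der q h0 h1).deriv]
    have inf := influence h0 h1 hr hn f (fun x => by simp only [hf]; split_ifs <;> simp)
      (fun σ x => by simp only [hf, ← hP σ x])
    rw [← hL, ← mu_eq] at inf
    have g1 : ε ≤ mu q P := by
      obtain ⟨q', hq', h⟩ := exists_lt_of_csInf_lt ⟨1, one ε (by linarith)⟩ hq.1
      exact hq'.2.trans (mono hq'.1 ⟨h0.le, h1.le⟩ h.le)
    have g2 : mu q P < 1 - ε := by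
      by_contra hc
      exact absurd (csInf_le (bdd _) ⟨⟨h0.le, h1.le⟩, not_lt.1 hc⟩) (not_le.2 hq.2)
    have g3 : ε ^ 2 ≤ mu q P * (1 - mu q P) := by nlinarith
    have pq : 0 < q * (1 - q) := by nlinarith
    rw [div_le_div_iff₀ (by positivity) pq]
    nlinarith [mul_le_mul_of_nonneg_left g3 (mul_pos pq L0).le]

end Vale.Agent.P063
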